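import Mathlib

/-!
# Systems of parameters in `ℂ⟦x₁, …, xₙ⟧` are regular sequences

The proof: depth by `Ext` (Rees' theorem of Mathlib), chains of associated primes, Krull dimension
of modules.
-/

universe u

open RingTheory.Sequence IsLocalRing CategoryTheory Abelian Limits Pointwise IsSMulRegular Module

namespace Vale.Agent.P298.H25

noncomputable section

/-- `depth M ≥ n`, by vanishing of `Ext` groups. -/
def DepthGE (R : Type u) [CommRing R] [IsLocalRing R] (M : Type u) [AddCommGroup M] [Module R M]
    (n : ℕ) : Prop :=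
  ∀ i < n, Subsingleton (Ext (ModuleCat.of R (R ⧸ maximalIdeal R)) (ModuleCat.of R M) i)

section general

variable {R : Type u} [CommRing R] [IsLocalRing R] {M : Type u} [AddCommGroup M] [Module R M]

theorem DepthGE.quotSMulTop {n : ℕ} (h : DepthGE R M (n + 1)) {a : R}
    (ha : IsSMulRegular M a) : DepthGE R (QuotSMulTop a M) n := by
  intro i hi
  have zero1 := AddCommGrpCat.isZero_of_iff_subsingleton.mpr (h i (by omega))
  have zero2 := AddCommGrpCat.isZero_of_iff_subsingleton.mpr (h (i + 1) (by omega))
  have ha' : IsSMulRegular (ModuleCat.of R M) a := ha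
  exact AddCommGrpCat.subsingleton_of_isZero <| ShortComplex.Exact.isZero_of_both_zeros
    ((Ext.covariant_sequence_exact₃' (ModuleCat.of R (R ⧸ maximalIdeal R))
      ha'.smulShortComplex_shortExact) i (i + 1) rfl)
    (zero1.eq_zero_of_src _) (zero2.eq_zero_of_tgt _)

theorem smul_top_lt [Module.Finite R M] [Nontrivial M] :
    maximalIdeal R • (⊤ : Submodule R M) < ⊤ := by
  refine lt_top_iff_ne_top.2 fun h => ?_
  have h1 := Submodule.eq_bot_of_le_smul_of_le_jacobson_bot (maximalIdeal R)
    (⊤ : Submodule R M) Module.Finite.fg_top (by rw [h]) (maximalIdeal_le_jacobson _)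
  exact top_ne_bot h1

theorem DepthGE.of_isRegular [IsNoetherianRing R] [Module.Finite R M] [Nontrivial M] {rs : List R}
    (hrs : ∀ r ∈ rs, r ∈ maximalIdeal R) (h : IsRegular M rs) : DepthGE R M rs.length := by
  have := (ModuleCat.exists_isRegular_tfae (maximalIdeal R) rs.length (ModuleCat.of R M)
    smul_top_lt).out 3 0
  intro i hi
  refine this.1 ⟨rs, rfl, hrs, h⟩ (ModuleCat.of R (R ⧸ maximalIdeal R)) inferInstance
    inferInstance ?_ i hi
  rw [Module.support_eq_zeroLocus, Ideal.annihilator_quotient]

theorem DepthGE.exists_regular [IsNoetherianRing R] [Module.Finite R M] [Nontrivial M] {n : ℕ}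
    (h : DepthGE R M (n + 1)) : ∃ x ∈ maximalIdeal R, IsSMulRegular M x := by
  obtain ⟨rs, hlen, hmem, hreg⟩ :=
    ModuleCat.exists_isRegular_of_exists_subsingleton_ext (maximalIdeal R) (n + 1)
      (ModuleCat.of R M) smul_top_lt (ModuleCat.of R (R ⧸ maximalIdeal R))
      (by rw [Module.support_eq_zeroLocus, Ideal.annihilator_quotient]) h
  match rs, hlen with
  | x :: rs', _ =>
    rw [isRegular_cons_iff] at hreg
    exact ⟨x, hmem x List.mem_cons_self, hreg.1⟩

theorem nontrivial_quot [Module.Finite R M] [Nontrivial M] {x : R} (hx : x ∈ maximalIdeal R) :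
    Nontrivial (QuotSMulTop x M) := nontrivial_quotSMulTop_of_mem_maximalIdeal M hx

/-- The step in the chain of associated primes. -/
theorem exists_associated_above [IsNoetherianRing R] [Module.Finite R M] {P : Ideal R}
    (hP : IsAssociatedPrime P M) {x : R} (hx : x ∈ maximalIdeal R) (hreg : IsSMulRegular M x) :
    ∃ Q : Ideal R, IsAssociatedPrime Q (QuotSMulTop x M) ∧ P ≤ Q ∧ x ∈ Q := by
  rw [isAssociatedPrime_iff] at hP
  obtain ⟨hPp, z0, hz0⟩ := hP
  -- the submodule of elements killed by `P`
  let N : Submodule R M := Submodule.torsionBySet R M (P : Set R)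
  have hz0N : z0 ∈ N := by
    rw [Submodule.mem_torsionBySet_iff]
    rintro ⟨a, ha⟩
    rw [SetLike.mem_coe, hz0] at ha
    simpa using ha
  have hz0ne : z0 ≠ 0 := by
    rintro rfl
    apply hPp.ne_top
    rw [hz0]
    ext a; simp
  -- some element of `N` is not in `x M`
  have hex : ∃ z ∈ N, z ∉ (x • (⊤ : Submodule R M)) := by
    by_contra hcon
    push Not at hcon
    have hN : N ≤ maximalIdeal R • N := by
      intro z hz
      obtain ⟨z', -, hz'⟩ := (Submodule.mem_smul_pointwise_iff_exists _ _ _).1 (hcon z hz)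
      have hz'N : z' ∈ N := by
        rw [Submodule.mem_torsionBySet_iff] at hz ⊢
        intro a
        apply hreg
        change x • ((a : R) • z') = x • (0 : M)
        rw [smul_comm, hz', hz a, smul_zero]
      rw [← hz']
      exact Submodule.smul_mem_smul hx hz'N
    have hbot := Submodule.eq_bot_of_le_smul_of_le_jacobson_bot (maximalIdeal R) N
      (IsNoetherian.noetherian N) hN (maximalIdeal_le_jacobson _)
    rw [hbot, Submodule.mem_bot] at hz0N
    exact hz0ne hz0N
  obtain ⟨z, hzN, hz⟩ := hex
  have hzne : (Submodule.Quotient.mk z : QuotSMulTop x M) ≠ 0 := by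
    rw [Ne, Submodule.Quotient.mk_eq_zero]
    exact hz
  obtain ⟨Q, hQ, hle⟩ := exists_le_isAssociatedPrime_of_isNoetherianRing R
    (Submodule.Quotient.mk z : QuotSMulTop x M) hzne
  refine ⟨Q, hQ, fun a ha => hle ?_, hle ?_⟩
  · rw [Submodule.mem_colon_singleton, Submodule.mem_bot, ← Submodule.Quotient.mk_smul]
    rw [Submodule.mem_torsionBySet_iff] at hzN
    rw [hzN ⟨a, ha⟩, Submodule.Quotient.mk_zero]
  · rw [Submodule.mem_colon_singleton, Submodule.mem_bot, ← Submodule.Quotient.mk_smul,
      Submodule.Quotient.mk_eq_zero]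
    exact Submodule.smul_mem_pointwise_smul z x ⊤ trivial

omit [IsLocalRing R] in
theorem notMem_of_associated [IsNoetherianRing R] {P : Ideal R} (hP : IsAssociatedPrime P M) {x : R}
    (hreg : IsSMulRegular M x) : x ∉ P := by
  rw [isAssociatedPrime_iff] at hP
  obtain ⟨hPp, z0, hz0⟩ := hP
  intro hx
  rw [hz0, Submodule.mem_colon_singleton, Submodule.mem_bot] at hx
  have : z0 = 0 := hreg (by simpa using hx)
  apply hPp.ne_top
  rw [hz0, this]
  ext a; simp

/-- `depth M ≤ dim R / P` for an associated prime `P`. -/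
theorem DepthGE.le_supportDim [IsNoetherianRing R] {n : ℕ} :
    ∀ {M : Type u} [AddCommGroup M] [Module R M] [Module.Finite R M], DepthGE R M n →
      ∀ {P : Ideal R}, IsAssociatedPrime P M → (n : WithBot ℕ∞) ≤ supportDim R (R ⧸ P) := by
  induction n with
  | zero =>
    intro M _ _ _ _ P hP
    have := hP.isPrime
    have hnt : Nontrivial (R ⧸ P) := Ideal.Quotient.nontrivial_iff.2 this.ne_top
    have h1 := Module.supportDim_ne_bot_of_nontrivial R (R ⧸ P)
    rw [Nat.cast_zero]
    obtain ⟨d, hd⟩ := WithBot.ne_bot_iff_exists.1 h1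
    rw [← hd]
    exact WithBot.coe_le_coe.2 zero_le
  | succ n ih =>
    intro M _ _ _ hM P hP
    have hnt : Nontrivial M := by
      by_contra hcon
      rw [not_nontrivial_iff_subsingleton] at hcon
      exact not_isAssociatedPrime_of_subsingleton hP
    obtain ⟨x, hx, hreg⟩ := hM.exists_regular
    obtain ⟨Q, hQ, hPQ, hxQ⟩ := exists_associated_above hP hx hreg
    have h1 := ih (hM.quotSMulTop hreg) hQ
    have hxP := notMem_of_associated hP hreg
    have := hP.isPrime
    have hregP : IsSMulRegular (R ⧸ P) x := by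
      intro a b hab
      obtain ⟨a, rfl⟩ := Ideal.Quotient.mk_surjective a
      obtain ⟨b, rfl⟩ := Ideal.Quotient.mk_surjective b
      change Ideal.Quotient.mk P (x * a) = Ideal.Quotient.mk P (x * b) at hab
      rw [Ideal.Quotient.eq, ← mul_sub] at hab
      rw [Ideal.Quotient.eq]
      exact (this.mem_or_mem hab).resolve_left hxP
    have h2 := supportDim_quotSMulTop_succ_eq_supportDim hregP hx
    rw [← h2]
    -- `R / Q` is a quotient of `(R / P) / x`
    have hle : (x • (⊤ : Submodule R (R ⧸ P))) ≤
        LinearMap.ker (Submodule.factor (p := P) (p' := Q) hPQ) := by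
      intro y hy
      obtain ⟨y', -, rfl⟩ := (Submodule.mem_smul_pointwise_iff_exists _ _ _).1 hy
      rw [LinearMap.mem_ker, map_smul]
      obtain ⟨y', rfl⟩ := Submodule.Quotient.mk_surjective P y'
      change (Submodule.Quotient.mk (x • y') : R ⧸ Q) = 0
      rw [Submodule.Quotient.mk_eq_zero]
      exact Q.mul_mem_right _ hxQ
    have h3 : supportDim R (R ⧸ Q) ≤ supportDim R (QuotSMulTop x (R ⧸ P)) := by
      refine Module.supportDim_le_of_surjective (f := Submodule.liftQ _ _ hle) ?_
      intro y
      obtain ⟨y, rfl⟩ := Submodule.Quotient.mk_surjective Q y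
      exact ⟨Submodule.Quotient.mk (Submodule.Quotient.mk y), rfl⟩
    push_cast
    gcongr
    exact h1.trans h3

/-- Dimension is at most the number of parameters. -/
theorem supportDim_le_length [IsNoetherianRing R] (rs : List R) :
    ∀ (N : Type u) [AddCommGroup N] [Module R N] [Module.Finite R N],
      (∀ r ∈ rs, r ∈ maximalIdeal R) →
      (∀ Q : Ideal R, Q.IsPrime → Module.annihilator R N ≤ Q → (∀ r ∈ rs, r ∈ Q) →
        Q = maximalIdeal R) → supportDim R N ≤ (rs.length : ℕ) := by
  induction rs with
  | nil =>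
    intro N _ _ _ _ h
    have : Subsingleton (Module.support R N) := by
      refine ⟨?_⟩
      rintro ⟨a, ha⟩ ⟨b, hb⟩
      rw [Module.support_eq_zeroLocus, PrimeSpectrum.mem_zeroLocus] at ha hb
      apply Subtype.ext
      apply PrimeSpectrum.ext
      change a.asIdeal = b.asIdeal
      rw [h a.asIdeal a.2 ha (by simp), h b.asIdeal b.2 hb (by simp)]
    simpa [supportDim] using Order.krullDim_nonpos_of_subsingleton (α := Module.support R N)
  | cons r rs ih =>
    intro N _ _ _ hmem h
    have hr : r ∈ maximalIdeal R := hmem r List.mem_cons_self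
    have h1 := supportDim_le_supportDim_quotSMulTop_succ (M := N) hr
    have h2 := ih (QuotSMulTop r N) (fun s hs => hmem s (List.mem_cons_of_mem _ hs))
      (fun Q hQ hann hrs => h Q hQ (fun a ha => hann (by
        rw [Module.mem_annihilator] at ha ⊢
        intro y
        obtain ⟨y, rfl⟩ := Submodule.Quotient.mk_surjective _ y
        rw [← Submodule.Quotient.mk_smul, ha, Submodule.Quotient.mk_zero]))
        (fun s hs => by
          rcases List.mem_cons.1 hs with rfl | hs
          · apply hann
            rw [Module.mem_annihilator]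
            intro y
            obtain ⟨y, rfl⟩ := Submodule.Quotient.mk_surjective _ y
            rw [← Submodule.Quotient.mk_smul, Submodule.Quotient.mk_eq_zero]
            exact Submodule.smul_mem_pointwise_smul y s ⊤ trivial
          · exact hrs s hs))
    refine h1.trans ?_
    rw [List.length_cons]
    push_cast
    gcongr

/-- Systems of parameters on Cohen-Macaulay modules are regular sequences. -/
theorem isWeaklyRegular_of_depthGE [IsNoetherianRing R] (rs : List R) :
    ∀ (M : Type u) [AddCommGroup M] [Module R M] [Module.Finite R M] [Nontrivial M],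
      (∀ r ∈ rs, r ∈ maximalIdeal R) → DepthGE R M rs.length →
      (∀ Q : Ideal R, Q.IsPrime → Module.annihilator R M ≤ Q → (∀ r ∈ rs, r ∈ Q) →
        Q = maximalIdeal R) → IsWeaklyRegular M rs := by
  induction rs with
  | nil => intro M _ _ _ _ _ _ _; exact IsWeaklyRegular.nil R M
  | cons r rs ih =>
    intro M _ _ _ _ hmem hdepth h
    have hr : r ∈ maximalIdeal R := hmem r List.mem_cons_self
    have hreg : IsSMulRegular M r := by
      by_contra hcon
      have hex : ∃ z : M, z ≠ 0 ∧ r • z = 0 := by
        by_contra hno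
        push Not at hno
        apply hcon
        intro a b hab
        by_contra hne
        exact hno (a - b) (sub_ne_zero.2 hne) (by
          rw [smul_sub]; exact sub_eq_zero.2 hab)
      obtain ⟨P, hP, hrP⟩ : ∃ P, IsAssociatedPrime P M ∧ r ∈ P := by
        have hmem' : r ∈ ⋃ p ∈ associatedPrimes R M, (p : Set R) := by
          rw [biUnion_associatedPrimes_eq_zero_divisors]
          exact hex
        simpa [AssociatedPrimes.mem_iff] using hmem'
      have h1 := hdepth.le_supportDim hP
      have hann : Module.annihilator R M ≤ P := by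
        rw [← Submodule.annihilator_top]
        exact hP.annihilator_le
      have h2 := supportDim_le_length rs (R ⧸ P) (fun s hs => hmem s (List.mem_cons_of_mem _ hs))
        (fun Q hQ hPQ hrs => h Q hQ (hann.trans (by rwa [Ideal.annihilator_quotient] at hPQ))
          (fun s hs => by
            rcases List.mem_cons.1 hs with rfl | hs
            · rw [Ideal.annihilator_quotient] at hPQ
              exact hPQ hrP
            · exact hrs s hs))
      have h3 := h1.trans h2
      rw [List.length_cons] at h3
      have h4 : rs.length + 1 ≤ rs.length := by exact_mod_cast h3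
      omega
    have hnt : Nontrivial (QuotSMulTop r M) := nontrivial_quot hr
    rw [isWeaklyRegular_cons_iff]
    refine ⟨hreg, ih (QuotSMulTop r M) (fun s hs => hmem s (List.mem_cons_of_mem _ hs))
      (hdepth.quotSMulTop hreg) ?_⟩
    intro Q hQ hann hrs
    refine h Q hQ (fun a ha => hann (by
        rw [Module.mem_annihilator] at ha ⊢
        intro y
        obtain ⟨y, rfl⟩ := Submodule.Quotient.mk_surjective _ y
        rw [← Submodule.Quotient.mk_smul, ha, Submodule.Quotient.mk_zero]))
        (fun s hs => ?_)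
    rcases List.mem_cons.1 hs with rfl | hs
    · apply hann
      rw [Module.mem_annihilator]
      intro y
      obtain ⟨y, rfl⟩ := Submodule.Quotient.mk_surjective _ y
      rw [← Submodule.Quotient.mk_smul, Submodule.Quotient.mk_eq_zero]
      exact Submodule.smul_mem_pointwise_smul y s ⊤ trivial
    · exact hrs s hs

end general

section powerSeries

open MvPowerSeries

variable {K : Type u} [Field K] {n : ℕ}

/-- The ideal of the first `k` variables. -/
def varIdeal (K : Type u) [Field K] (n k : ℕ) : Ideal (MvPowerSeries (Fin n) K) :=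
  Ideal.span {f | ∃ j : Fin n, j.val < k ∧ f = X j}

theorem coeff_eq_zero_of_mem_varIdeal {k : ℕ} {f : MvPowerSeries (Fin n) K}
    (hf : f ∈ varIdeal K n k) :
    ∀ d : Fin n →₀ ℕ, (∀ j : Fin n, j.val < k → d j = 0) → coeff d f = 0 := by
  classical
  induction hf using Submodule.span_induction with
  | mem x hx =>
    intro d hd
    obtain ⟨j, hj, rfl⟩ := hx
    rw [coeff_X, if_neg]
    rintro rfl
    have := hd j hj
    simp at this
  | zero => simp
  | add x y _ _ hx hy => intro d hd; rw [map_add, hx d hd, hy d hd, add_zero]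
  | smul a x _ hx =>
    intro d hd
    rw [smul_eq_mul, coeff_mul]
    apply Finset.sum_eq_zero
    intro p hp
    rw [hx p.2 (fun j hj => ?_), mul_zero]
    have h1 := Finset.HasAntidiagonal.mem_antidiagonal.1 hp
    have h2 := DFunLike.congr_fun h1 j
    rw [Finsupp.add_apply, hd j hj] at h2
    omega

theorem mem_varIdeal {k : ℕ} : ∀ {f : MvPowerSeries (Fin n) K},
    (∀ d : Fin n →₀ ℕ, (∀ j : Fin n, j.val < k → d j = 0) → coeff d f = 0) →
      f ∈ varIdeal K n k := by
  induction k with
  | zero =>
    intro f hf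
    have : f = 0 := by
      ext d
      exact hf d (by simp)
    rw [this]
    exact Submodule.zero_mem _
  | succ k ih =>
    intro f hf
    by_cases hk : k < n
    · let g : MvPowerSeries (Fin n) K := fun d => if d ⟨k, hk⟩ = 0 then coeff d f else 0
      have hg : ∀ d, coeff d g = if d ⟨k, hk⟩ = 0 then coeff d f else 0 := fun d => rfl
      have h1 : (X ⟨k, hk⟩ : MvPowerSeries (Fin n) K) ∣ f - g := by
        rw [X_dvd_iff]
        intro d hd
        rw [map_sub, hg, if_pos hd, sub_self]
      have h2 : g ∈ varIdeal K n k := by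
        apply ih
        intro d hd
        rw [hg]
        split_ifs with h0
        · apply hf
          intro j hj
          rcases Nat.lt_succ_iff_lt_or_eq.1 hj with h | h
          · exact hd j h
          · have : j = ⟨k, hk⟩ := Fin.ext h
            rw [this, h0]
        · rfl
      have h3 : varIdeal K n k ≤ varIdeal K n (k + 1) := by
        apply Ideal.span_mono
        rintro x ⟨j, hj, rfl⟩
        exact ⟨j, by omega, rfl⟩
      have h4 : (X ⟨k, hk⟩ : MvPowerSeries (Fin n) K) ∈ varIdeal K n (k + 1) :=
        Ideal.subset_span ⟨⟨k, hk⟩, by simp, rfl⟩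
      have h5 : f = (f - g) + g := by ring
      rw [h5]
      exact Ideal.add_mem _ (Ideal.mem_of_dvd _ h1 h4) (h3 h2)
    · have h3 : varIdeal K n k ≤ varIdeal K n (k + 1) := by
        apply Ideal.span_mono
        rintro x ⟨j, hj, rfl⟩
        exact ⟨j, by omega, rfl⟩
      apply h3
      apply ih
      intro d hd
      apply hf
      intro j _
      exact hd j (by omega)

theorem X_mul_mem {k : ℕ} (hk : k < n) {f : MvPowerSeries (Fin n) K}
    (hf : X ⟨k, hk⟩ * f ∈ varIdeal K n k) : f ∈ varIdeal K n k := by
  classical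
  apply mem_varIdeal
  intro d hd
  have h := coeff_eq_zero_of_mem_varIdeal hf (Finsupp.single ⟨k, hk⟩ 1 + d) (by
    intro j hj
    rw [Finsupp.add_apply, hd j hj, Finsupp.single_apply, if_neg]
    intro h
    rw [← h] at hj
    simp at hj)
  rwa [X, coeff_add_monomial_mul, one_mul] at h

theorem ofList_take (k : ℕ) :
    Ideal.ofList ((List.ofFn fun i : Fin n => (X i : MvPowerSeries (Fin n) K)).take k) =
      varIdeal K n k := by
  unfold Ideal.ofList varIdeal
  congr 1
  ext f
  simp only [Set.mem_ofPred_eq]
  rw [List.mem_take_iff_getElem]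
  constructor
  · rintro ⟨i, hi, rfl⟩
    have hi2 : i < k ∧ i < n := by simpa using hi
    exact ⟨⟨i, hi2.2⟩, hi2.1, by simp⟩
  · rintro ⟨j, hj, rfl⟩
    exact ⟨j, by simpa using hj, by simp⟩

theorem isWeaklyRegular_X :
    IsWeaklyRegular (MvPowerSeries (Fin n) K)
      (List.ofFn fun i : Fin n => (X i : MvPowerSeries (Fin n) K)) := by
  rw [isWeaklyRegular_iff_Fin]
  intro i
  have hi : i.val < n := by simpa using i.2
  rw [isSMulRegular_quotient_iff_mem_of_smul_mem]
  intro x hx
  rw [ofList_take, smul_eq_mul, Ideal.mul_top] at hx ⊢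
  have h1 : (List.ofFn fun i : Fin n => (X i : MvPowerSeries (Fin n) K))[i] = X ⟨i, hi⟩ := by
    simp
  rw [h1, smul_eq_mul] at hx
  exact X_mul_mem hi hx

theorem mem_maximalIdeal_iff {f : MvPowerSeries (Fin n) K} :
    f ∈ maximalIdeal (MvPowerSeries (Fin n) K) ↔ constantCoeff f = 0 := by
  rw [mem_maximalIdeal, mem_nonunits_iff, MvPowerSeries.isUnit_iff_constantCoeff,
    isUnit_iff_ne_zero, not_not]

theorem depthGE_powerSeries :
    DepthGE (MvPowerSeries (Fin n) K) (MvPowerSeries (Fin n) K) n := by
  have hmem : ∀ r ∈ (List.ofFn fun i : Fin n => (X i : MvPowerSeries (Fin n) K)),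
      r ∈ maximalIdeal (MvPowerSeries (Fin n) K) := by
    intro r hr
    obtain ⟨i, rfl⟩ := (List.mem_ofFn' _ _).1 hr
    rw [mem_maximalIdeal_iff, constantCoeff_X]
  have h := IsRegular.of_isWeaklyRegular_of_mem_maximalIdeal
    (MvPowerSeries (Fin n) K) hmem (isWeaklyRegular_X (K := K) (n := n))
  have h2 := DepthGE.of_isRegular hmem h
  rwa [List.length_ofFn] at h2

/-- If `K⟦x₁, …, xₙ⟧ / (f₁, …, fₙ)` has finite dimension then `f₁, …, fₙ` is a regular
sequence. -/
theorem isWeaklyRegular_of_finite (f : Fin n → MvPowerSeries (Fin n) K)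
    (hf : ∀ i, constantCoeff (f i) = 0)
    (hfin : Module.Finite K (MvPowerSeries (Fin n) K ⧸ Ideal.span (Set.range f))) :
    IsWeaklyRegular (MvPowerSeries (Fin n) K) (List.ofFn f) := by
  refine isWeaklyRegular_of_depthGE (List.ofFn f) (MvPowerSeries (Fin n) K) ?_ ?_ ?_
  · intro r hr
    obtain ⟨i, rfl⟩ := (List.mem_ofFn' _ _).1 hr
    exact mem_maximalIdeal_iff.2 (hf i)
  · rw [List.length_ofFn]
    exact depthGE_powerSeries
  · intro Q hQ _ hmem
    have hle : Ideal.span (Set.range f) ≤ Q := by
      rw [Ideal.span_le]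
      rintro _ ⟨i, rfl⟩
      exact hmem (f i) ((List.mem_ofFn' _ _).2 ⟨i, rfl⟩)
    have hQfin : Module.Finite K (MvPowerSeries (Fin n) K ⧸ Q) :=
      Module.Finite.of_surjective (Ideal.Quotient.factorₐ K hle).toLinearMap
        (Ideal.Quotient.factor_surjective hle)
    have hart : IsArtinianRing (MvPowerSeries (Fin n) K ⧸ Q) := isArtinian_of_tower K inferInstance
    have hfield : IsField (MvPowerSeries (Fin n) K ⧸ Q) :=
      IsArtinianRing.isField_of_isDomain _
    exact IsLocalRing.eq_maximalIdeal (Ideal.Quotient.maximal_of_isField Q hfield)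

theorem isWeaklyRegular_snoc {m : ℕ} (a : Fin m → MvPowerSeries (Fin (m + 1)) K)
    (l : MvPowerSeries (Fin (m + 1)) K) (ha : ∀ i, constantCoeff (a i) = 0)
    (hl : constantCoeff l = 0)
    (hfin : Module.Finite K (MvPowerSeries (Fin (m + 1)) K ⧸
      (Ideal.span (Set.range a) ⊔ Ideal.span {l}))) :
    IsWeaklyRegular (MvPowerSeries (Fin (m + 1)) K) (List.ofFn a ++ [l]) := by
  have h := isWeaklyRegular_of_finite (n := m + 1) (K := K)
    (Fin.snoc (α := fun _ => MvPowerSeries (Fin (m + 1)) K) a l)
    (fun i => by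
      refine Fin.lastCases ?_ (fun i => ?_) i
      · simpa using hl
      · simpa using ha i)
    (by
      have hr : Set.range (Fin.snoc (α := fun _ => MvPowerSeries (Fin (m + 1)) K) a l) =
          Set.range a ∪ {l} := by
        ext x
        simp [eq_comm]
      rw [hr, Ideal.span_union]
      exact hfin)
  rw [List.ofFn_succ'] at h
  simpa using h

/-- **COL-CM.** -/
theorem mem_of_mul_mem_field {m : ℕ} (a : Fin m → MvPowerSeries (Fin (m + 1)) K)
    (l : MvPowerSeries (Fin (m + 1)) K) (ha : ∀ i, constantCoeff (a i) = 0)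
    (hl : constantCoeff l = 0)
    (hfin : Module.Finite K (MvPowerSeries (Fin (m + 1)) K ⧸
      (Ideal.span (Set.range a) ⊔ Ideal.span {l}))) :
    ∀ x, l * x ∈ Ideal.span (Set.range a) → x ∈ Ideal.span (Set.range a) := by
  have h := isWeaklyRegular_snoc a l ha hl hfin
  rw [isWeaklyRegular_append_iff, isWeaklyRegular_singleton_iff,
    isSMulRegular_quotient_iff_mem_of_smul_mem] at h
  have hspan : (Ideal.ofList (List.ofFn a) • ⊤ : Submodule (MvPowerSeries (Fin (m + 1)) K)
      (MvPowerSeries (Fin (m + 1)) K)) = Ideal.span (Set.range a) := by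
    rw [smul_eq_mul, Ideal.mul_top, Ideal.ofList]
    congr 1
    ext x
    simp [List.mem_ofFn']
  rw [hspan] at h
  exact fun x hx => h.2 x hx

end powerSeries

/-- A system of parameters of `ℂ⟦x₀, …, xₘ⟧` is a regular sequence (last step). -/
theorem mem_of_mul_mem {m : ℕ} (a : Fin m → MvPowerSeries (Fin (m + 1)) ℂ)
    (l : MvPowerSeries (Fin (m + 1)) ℂ) (ha : ∀ i, MvPowerSeries.constantCoeff (a i) = 0)
    (hl : MvPowerSeries.constantCoeff l = 0)
    (hfin : Module.Finite ℂ (MvPowerSeries (Fin (m + 1)) ℂ ⧸
      (Ideal.span (Set.range a) ⊔ Ideal.span {l}))) :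
    ∀ x, l * x ∈ Ideal.span (Set.range a) → x ∈ Ideal.span (Set.range a) :=
  mem_of_mul_mem_field a l ha hl hfin

end

end Vale.Agent.P298.H25
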