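import Mathlib

/-!
# Colength and determinants over `K⟦X⟧`, and joint eigencharacters

* `finrank_quot_range`: for an endomorphism `T` of a finite free `ℂ⟦X⟧`-module,
  `dim_ℂ (coker T) = e` iff `order (det T) = e`.
* `exists_characters`: the determinant of the action of `b : B` on a finite dimensional `B`-module
  is the product of the values at `b` of characters `χ i : B →ₐ[k] k`.
-/

open Module

namespace Vale.Agent.P298.H25

noncomputable section

section quot

variable {K : Type*} [Field K]

/-- The first `n` coefficients. -/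
def coeffMap (K : Type*) [Field K] (n : ℕ) : PowerSeries K →ₗ[K] (Fin n → K) :=
  LinearMap.pi fun i => PowerSeries.coeff (R := K) i

theorem coeffMap_surjective (n : ℕ) : Function.Surjective (coeffMap K n) := by
  intro v
  refine ⟨PowerSeries.mk fun i => if h : i < n then v ⟨i, h⟩ else 0, ?_⟩
  ext i
  simp [coeffMap]

theorem ker_coeffMap (n : ℕ) :
    LinearMap.ker (coeffMap K n) =
      (Ideal.span {(PowerSeries.X : PowerSeries K) ^ n}).restrictScalars K := by
  ext f
  rw [LinearMap.mem_ker, Submodule.restrictScalars_mem, Ideal.mem_span_singleton,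
    PowerSeries.X_pow_dvd_iff]
  constructor
  · intro h m hm
    exact congrFun h ⟨m, hm⟩
  · intro h
    ext i
    exact h i i.2

/-- `K⟦X⟧ / (X ^ n)` is `K ^ n`. -/
def quotXPow (n : ℕ) :
    (PowerSeries K ⧸ Ideal.span {(PowerSeries.X : PowerSeries K) ^ n}) ≃ₗ[K] (Fin n → K) :=
  (Submodule.Quotient.restrictScalarsEquiv K _).symm.trans
    ((Submodule.quotEquivOfEq _ _ (ker_coeffMap n).symm).trans
      ((coeffMap K n).quotKerEquivOfSurjective (coeffMap_surjective n)))

theorem span_eq {g : PowerSeries K} (hg : g ≠ 0) :
    Ideal.span {g} = Ideal.span {(PowerSeries.X : PowerSeries K) ^ g.order.toNat} := by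
  have h := PowerSeries.X_pow_order_mul_divXPowOrder (f := g)
  have hu := PowerSeries.isUnit_divided_by_X_pow_order hg
  conv_lhs => rw [← h]
  exact Ideal.span_singleton_mul_right_unit hu _

theorem quot_span {g : PowerSeries K} (hg : g ≠ 0) :
    Module.Finite K (PowerSeries K ⧸ Ideal.span {g}) ∧
      finrank K (PowerSeries K ⧸ Ideal.span {g}) = g.order.toNat := by
  rw [span_eq hg]
  refine ⟨Module.Finite.equiv (quotXPow (K := K) g.order.toNat).symm, ?_⟩
  rw [(quotXPow (K := K) g.order.toNat).finrank_eq]
  simp

end quot

section det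

variable {K : Type*} [Field K] {M : Type*} [AddCommGroup M] [Module (PowerSeries K) M]
  [Module K M] [IsScalarTower K (PowerSeries K) M] [Module.Free (PowerSeries K) M]
  [Module.Finite (PowerSeries K) M]

theorem injective_of_det_ne_zero {R : Type*} [CommRing R] [IsDomain R] {M : Type*}
    [AddCommGroup M] [Module R M] [Module.Free R M] [Module.Finite R M] (T : M →ₗ[R] M)
    (h : LinearMap.det T ≠ 0) : Function.Injective T := by
  classical
  let b := Module.Free.chooseBasis R M
  rw [← LinearMap.ker_eq_bot, LinearMap.ker_eq_bot']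
  intro x hx
  by_contra hne
  apply h
  rw [← LinearMap.det_toMatrix b]
  rw [← Matrix.exists_mulVec_eq_zero_iff]
  refine ⟨b.repr x, ?_, ?_⟩
  · intro h0
    apply hne
    apply b.repr.injective
    ext i
    simpa using congrFun h0 i
  · rw [LinearMap.toMatrix_mulVec_repr, hx]
    simp

theorem finrank_of_det_ne_zero (T : M →ₗ[PowerSeries K] M) (h : LinearMap.det T ≠ 0) :
    Module.Finite K (M ⧸ LinearMap.range T) ∧
      finrank K (M ⧸ LinearMap.range T) = (LinearMap.det T).order.toNat := by
  classical
  have hinj := injective_of_det_ne_zero T h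
  let b := Module.Free.chooseBasis (PowerSeries K) M
  let eT : M ≃ₗ[PowerSeries K] LinearMap.range T := LinearEquiv.ofInjective T hinj
  have hr : finrank (PowerSeries K) (LinearMap.range T) = finrank (PowerSeries K) M :=
    eT.finrank_eq.symm
  set a := Submodule.smithNormalFormCoeffs b hr with ha
  let b' := Submodule.smithNormalFormTopBasis b hr
  let ab := Submodule.smithNormalFormBotBasis b hr
  have hab := Submodule.smithNormalFormBotBasis_def b hr
  let e' : M ≃ₗ[PowerSeries K] LinearMap.range T := b'.equiv ab (Equiv.refl _)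
  have hassoc := LinearMap.associated_det_comp_equiv (LinearMap.range T).subtype eT e'
  have h1 : (LinearMap.range T).subtype ∘ₗ (eT : M →ₗ[PowerSeries K] LinearMap.range T) = T := by
    ext x; rfl
  have h2 : (LinearMap.range T).subtype ∘ₗ (e' : M →ₗ[PowerSeries K] LinearMap.range T) =
      Matrix.toLin b' b' (Matrix.diagonal a) := by
    refine b'.ext fun i => ?_
    simp only [LinearMap.comp_apply, LinearEquiv.coe_coe, Submodule.subtype_apply]
    rw [show e' (b' i) = ab i by simp [e'], hab i, Matrix.toLin_self]
    simp [Matrix.diagonal_apply]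
    rfl
  rw [h1, h2, LinearMap.det_toLin, Matrix.det_diagonal] at hassoc
  have hprod : ∏ i, a i ≠ 0 := fun h0 => h (by
    rw [h0] at hassoc
    exact (associated_zero_iff_eq_zero _).1 hassoc)
  have hai : ∀ i, a i ≠ 0 := fun i h0 => hprod (Finset.prod_eq_zero (Finset.mem_univ i) h0)
  have : ∀ i, Module.Finite K (PowerSeries K ⧸ Ideal.span ({a i} : Set (PowerSeries K))) :=
    fun i => (quot_span (hai i)).1
  have heq : (LinearMap.det T).order = (∏ i, a i).order := by
    obtain ⟨u, hu⟩ := hassoc
    rw [← hu, PowerSeries.order_mul, PowerSeries.order_zero_of_unit u.isUnit, add_zero]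
  constructor
  · exact Module.Finite.equiv (Submodule.quotientEquivDirectSum K b hr).symm
  · rw [Submodule.finrank_quotient_eq_sum K b hr, heq, PowerSeries.order_prod]
    rw [ENat.toNat_sum]
    · exact Finset.sum_congr rfl fun i _ => (quot_span (hai i)).2
    · intro i _
      simpa [PowerSeries.order_eq_top] using hai i

theorem det_ne_zero_of_finite (T : M →ₗ[PowerSeries K] M)
    (h : Module.Finite K (M ⧸ LinearMap.range T)) : LinearMap.det T ≠ 0 := by
  classical
  have htor : Module.IsTorsion (PowerSeries K) (M ⧸ LinearMap.range T) := by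
    intro q
    let φ : Polynomial K →ₗ[K] (M ⧸ LinearMap.range T) :=
      ((LinearMap.toSpanSingleton (PowerSeries K) (M ⧸ LinearMap.range T) q).restrictScalars K)
        ∘ₗ (Polynomial.coeToPowerSeries.algHom (R := K) K).toLinearMap
    have hni : ¬ Function.Injective φ := fun hφ =>
      Polynomial.not_finite (R := K) (Module.Finite.of_injective φ hφ)
    rw [injective_iff_map_eq_zero] at hni
    push Not at hni
    obtain ⟨p, hp, hp0⟩ := hni
    have hpc : (p : PowerSeries K) ≠ 0 := by
      intro h0
      exact hp0 (Polynomial.coe_eq_zero_iff.1 h0)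
    refine ⟨⟨(p : PowerSeries K), mem_nonZeroDivisors_of_ne_zero hpc⟩, ?_⟩
    simpa [φ] using hp
  have hrank : Module.rank (PowerSeries K) (M ⧸ LinearMap.range T) = 0 :=
    Module.rank_eq_zero_iff_isTorsion.2 htor
  have hadd := rank_quotient_add_rank_of_isDomain (R := PowerSeries K) (LinearMap.range T)
  rw [hrank, zero_add] at hadd
  have hfr : finrank (PowerSeries K) (LinearMap.range T) = finrank (PowerSeries K) M := by
    simp [finrank, hadd]
  have : Module.Finite (PowerSeries K) (LinearMap.range T) := inferInstance
  let e : LinearMap.range T ≃ₗ[PowerSeries K] M := LinearEquiv.ofFinrankEq _ _ hfr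
  have hsurj : Function.Surjective ((e : LinearMap.range T →ₗ[PowerSeries K] M) ∘ₗ
      T.rangeRestrict) := by
    rw [LinearMap.coe_comp]
    exact e.surjective.comp T.surjective_rangeRestrict
  have hinj := OrzechProperty.injective_of_surjective_endomorphism _ hsurj
  have hT : Function.Injective T := by
    intro x y hxy
    apply hinj
    simp only [LinearMap.comp_apply, LinearEquiv.coe_coe]
    congr 1
    exact Subtype.ext hxy
  intro hdet
  let b := Module.Free.chooseBasis (PowerSeries K) M
  rw [← LinearMap.det_toMatrix b, ← Matrix.exists_mulVec_eq_zero_iff] at hdet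
  obtain ⟨v, hv, hv0⟩ := hdet
  apply hv
  have h1 : T (b.equivFun.symm v) = 0 := by
    apply b.repr.injective
    refine Finsupp.ext fun i => ?_
    have := congrFun (LinearMap.toMatrix_mulVec_repr b b T (b.equivFun.symm v)) i
    have h2 : (b.repr (b.equivFun.symm v) : _ → PowerSeries K) = v := by
      rw [← Basis.equivFun_apply, LinearEquiv.apply_symm_apply]
    rw [h2, hv0] at this
    simpa using this.symm
  have h3 : b.equivFun.symm v = 0 := hT (by rw [h1, map_zero])
  exact (map_eq_zero_iff _ b.equivFun.symm.injective).1 h3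

theorem finrank_quot_range' (T : M →ₗ[PowerSeries K] M) (e : ℕ) :
    (Module.Finite K (M ⧸ LinearMap.range T) ∧ finrank K (M ⧸ LinearMap.range T) = e) ↔
      (LinearMap.det T).order = e := by
  constructor
  · rintro ⟨hfin, hrk⟩
    have hne := det_ne_zero_of_finite T hfin
    have h2 := (finrank_of_det_ne_zero T hne).2
    rw [← hrk, h2, ENat.natCast_toNat]
    simpa [PowerSeries.order_eq_top] using hne
  · intro h
    have hne : LinearMap.det T ≠ 0 := by
      intro h0
      rw [h0, PowerSeries.order_zero] at h
      exact ENat.top_ne_natCast e h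
    obtain ⟨h1, h2⟩ := finrank_of_det_ne_zero T hne
    exact ⟨h1, by rw [h2, h]; rfl⟩

end det

/-- For an endomorphism `T` of a finite free `ℂ⟦X⟧`-module, the cokernel has dimension `e` over
`ℂ` iff `det T` has order `e`. -/
theorem finrank_quot_range {M : Type*} [AddCommGroup M] [Module (PowerSeries ℂ) M] [Module ℂ M]
    [IsScalarTower ℂ (PowerSeries ℂ) M] [Module.Free (PowerSeries ℂ) M]
    [Module.Finite (PowerSeries ℂ) M] (T : M →ₗ[PowerSeries ℂ] M) (e : ℕ) :
    (Module.Finite ℂ (M ⧸ LinearMap.range T) ∧ finrank ℂ (M ⧸ LinearMap.range T) = e) ↔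
      (LinearMap.det T).order = e :=
  finrank_quot_range' T e

section char

variable {k : Type*} [Field k] {B : Type*} [CommRing B] [Algebra k B]

/-- `b : B` is killed on `V` by a nonzero split polynomial. -/
def SplitOn (k : Type*) [Field k] {B : Type*} [CommRing B] [Algebra k B] (V : Type*)
    [AddCommGroup V] [Module B V] (b : B) : Prop :=
  ∃ p : Polynomial k, p ≠ 0 ∧ p.Splits ∧ ∀ v : V, (Polynomial.aeval b p) • v = 0

theorem SplitOn.submodule {V : Type*} [AddCommGroup V] [Module B V] {b : B}
    (h : SplitOn k V b) (W : Submodule B V) : SplitOn k W b := by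
  obtain ⟨p, hp0, hp, hv⟩ := h
  exact ⟨p, hp0, hp, fun w => Subtype.ext (hv w)⟩

theorem SplitOn.quotient {V : Type*} [AddCommGroup V] [Module B V] {b : B}
    (h : SplitOn k V b) (W : Submodule B V) : SplitOn k (V ⧸ W) b := by
  obtain ⟨p, hp0, hp, hv⟩ := h
  refine ⟨p, hp0, hp, fun w => ?_⟩
  obtain ⟨v, rfl⟩ := Submodule.Quotient.mk_surjective W w
  rw [← Submodule.Quotient.mk_smul, hv, Submodule.Quotient.mk_zero]

/-- The action of `b` as a `k`-linear map. -/
abbrev act (k : Type*) [Field k] {B : Type*} [CommRing B] [Algebra k B] (V : Type*)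
    [AddCommGroup V] [Module k V] [Module B V] [IsScalarTower k B V] (b : B) : V →ₗ[k] V :=
  Algebra.lsmul k k V b

theorem exists_eigen {V : Type*} [AddCommGroup V] [Module k V] [Module B V]
    [IsScalarTower k B V] [FiniteDimensional k V] [Nontrivial V] {b : B}
    (h : SplitOn k V b) : ∃ (c : k) (v : V), v ≠ 0 ∧ b • v = c • v := by
  obtain ⟨p, hp0, hp, hv⟩ := h
  have h0 : Polynomial.aeval (act k V b) p = 0 := by
    rw [act, Polynomial.aeval_algHom_apply]
    ext v
    exact hv v
  have hdvd : minpoly k (act k V b) ∣ p := minpoly.dvd _ _ h0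
  have hs : (minpoly k (act k V b)).Splits := hp.of_dvd hp0 hdvd
  have hint : IsIntegral k (act k V b) := Algebra.IsIntegral.isIntegral _
  have hdeg : (minpoly k (act k V b)).degree ≠ 0 := (minpoly.degree_pos hint).ne'
  obtain ⟨c, hc⟩ := hs.exists_eval_eq_zero hdeg
  have hev : Module.End.HasEigenvalue (act k V b) c :=
    Module.End.hasEigenvalue_of_isRoot hc
  obtain ⟨v, hv1, hv2⟩ := hev.exists_hasEigenvector
  rw [Module.End.mem_eigenspace_iff] at hv1
  exact ⟨c, v, hv2, hv1⟩

/-- Every simple module over a commutative algebra generated by elements which are killed by split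
polynomials is given by a character and is one dimensional. -/
theorem exists_character_of_isSimple {V : Type*} [AddCommGroup V] [Module k V] [Module B V]
    [IsScalarTower k B V] [FiniteDimensional k V] [IsSimpleModule B V] (S : Set B)
    (hS : Algebra.adjoin k S = ⊤) (hsplit : ∀ s ∈ S, SplitOn k V s) :
    ∃ χ : B →ₐ[k] k, (∀ (b : B) (v : V), b • v = χ b • v) ∧ finrank k V = 1 := by
  have hnt : Nontrivial V := IsSimpleModule.nontrivial B V
  have hsc : ∀ b : B, ∃ c : k, ∀ v : V, b • v = c • v := by
    intro b
    have hb : b ∈ Algebra.adjoin k S := by rw [hS]; trivial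
    induction hb using Algebra.adjoin_induction with
    | mem s hs =>
      obtain ⟨c, v, hv, hvc⟩ := exists_eigen (k := k) (hsplit s hs)
      let W : Submodule B V := LinearMap.ker (LinearMap.lsmul B V (s - algebraMap k B c))
      have hW : W ≠ ⊥ := by
        intro h
        have : v ∈ W := by
          simp only [W, LinearMap.mem_ker, LinearMap.lsmul_apply, sub_smul, hvc, algebraMap_smul,
            sub_self]
        rw [h, Submodule.mem_bot] at this
        exact hv this
      have hWt : W = ⊤ := (IsSimpleOrder.eq_bot_or_eq_top W).resolve_left hW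
      refine ⟨c, fun w => ?_⟩
      have : w ∈ W := by rw [hWt]; trivial
      simp only [W, LinearMap.mem_ker, LinearMap.lsmul_apply, sub_smul, algebraMap_smul] at this
      exact sub_eq_zero.1 this
    | algebraMap c => exact ⟨c, fun v => algebraMap_smul B c v⟩
    | add x y _ _ hx hy =>
      obtain ⟨c, hc⟩ := hx
      obtain ⟨d, hd⟩ := hy
      exact ⟨c + d, fun v => by rw [add_smul, hc, hd, add_smul]⟩
    | mul x y _ _ hx hy =>
      obtain ⟨c, hc⟩ := hx
      obtain ⟨d, hd⟩ := hy
      exact ⟨c * d, fun v => by rw [mul_smul, hd, hc, mul_smul]⟩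
  choose c hc using hsc
  obtain ⟨v, hv⟩ := exists_ne (0 : V)
  have hinj : Function.Injective (fun a : k => a • v) := smul_left_injective k hv
  let χ : B →ₐ[k] k :=
    { toFun := c
      map_one' := hinj (by simp only [← hc, one_smul])
      map_mul' := fun x y => hinj (by simp only [← hc, mul_smul])
      map_zero' := hinj (by simp only [← hc, zero_smul])
      map_add' := fun x y => hinj (by simp only [← hc, add_smul])
      commutes' := fun a => hinj (by simp only [← hc, algebraMap_smul]) }
  refine ⟨χ, fun b w => hc b w, ?_⟩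
  rw [finrank_eq_one_iff_of_nonzero' v hv]
  intro w
  have hw : w ∈ Submodule.span B {v} := by
    have : Submodule.span B {v} = ⊤ :=
      (IsSimpleOrder.eq_bot_or_eq_top _).resolve_left
        fun h => hv (Submodule.span_singleton_eq_bot.1 h)
    rw [this]; trivial
  obtain ⟨b, rfl⟩ := Submodule.mem_span_singleton.1 hw
  exact ⟨c b, (hc b v).symm⟩

theorem exists_characters_aux (S : Set B) (hS : Algebra.adjoin k S = ⊤) (n : ℕ) :
    ∀ (V : Type*) [AddCommGroup V] [Module k V] [Module B V] [IsScalarTower k B V]
      [FiniteDimensional k V], finrank k V = n → (∀ s ∈ S, SplitOn k V s) →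
      ∃ χ : Fin n → (B →ₐ[k] k), ∀ b : B, LinearMap.det (act k V b) = ∏ i, χ i b := by
  induction n with
  | zero =>
    intro V _ _ _ _ _ hV _
    refine ⟨fun i => i.elim0, fun b => ?_⟩
    rw [LinearMap.det_eq_one_of_finrank_eq_zero hV]
    simp
  | succ n ih =>
    intro V _ _ _ _ _ hV hspl
    have hnt : Nontrivial V := Module.nontrivial_of_finrank_pos (R := k) (by omega)
    have hart : IsArtinian B V := isArtinian_of_tower k inferInstance
    obtain ⟨W, hW⟩ := IsAtomic.exists_atom (Submodule B V)
    have hsimple : IsSimpleModule B W := isSimpleModule_iff_isAtom.2 hW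
    have hWfin : FiniteDimensional k W :=
      (inferInstance : FiniteDimensional k (W.restrictScalars k))
    obtain ⟨χ0, hχ0, hW1⟩ := exists_character_of_isSimple (k := k) (V := W) S hS
      fun s hs => (hspl s hs).submodule W
    have hQ : finrank k (V ⧸ W) = n := by
      have h1 := Submodule.finrank_quotient_add_finrank (W.restrictScalars k)
      have h2 : finrank k (V ⧸ W) = finrank k (V ⧸ W.restrictScalars k) :=
        (Submodule.Quotient.restrictScalarsEquiv k W).symm.finrank_eq
      have h3 : finrank k (W.restrictScalars k) = 1 := hW1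
      omega
    obtain ⟨χ, hχ⟩ := ih (V ⧸ W) hQ fun s hs => (hspl s hs).quotient W
    refine ⟨Fin.cons χ0 χ, fun b => ?_⟩
    rw [Fin.prod_univ_succ, Fin.cons_zero]
    simp only [Fin.cons_succ]
    rw [← hχ b]
    have he : W.restrictScalars k ≤ (W.restrictScalars k).comap (act k V b) := by
      intro w hw
      exact W.smul_mem b hw
    rw [LinearMap.det_eq_det_mul_det (W.restrictScalars k) (act k V b) he]
    congr 1
    have h3 : finrank k (W.restrictScalars k) = 1 := hW1
    have h4 : LinearMap.restrict (act k V b) (p := W.restrictScalars k)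
        (q := W.restrictScalars k) he = χ0 b • LinearMap.id := by
      ext w
      exact congrArg Subtype.val (hχ0 b ⟨w.1, w.2⟩)
    rw [h4, LinearMap.det_smul, LinearMap.det_id, h3]
    simp

/-- Joint eigencharacters: if `B` is generated by elements whose minimal polynomials on the finite
dimensional module `V` split, then the determinant of the action of `b` is the product of the
values of `finrank k V` characters. -/
theorem exists_characters {V : Type*} [AddCommGroup V] [Module k V] [Module B V]
    [IsScalarTower k B V] [FiniteDimensional k V] (S : Set B) (hS : Algebra.adjoin k S = ⊤)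
    (hspl : ∀ s ∈ S, (minpoly k (Algebra.lsmul k k V s : V →ₗ[k] V)).Splits) :
    ∃ χ : Fin (finrank k V) → (B →ₐ[k] k),
      ∀ b : B, LinearMap.det (Algebra.lsmul k k V b : V →ₗ[k] V) = ∏ i, χ i b := by
  refine exists_characters_aux S hS (finrank k V) V rfl fun s hs => ?_
  have hint : IsIntegral k (act k V s) := Algebra.IsIntegral.isIntegral _
  refine ⟨minpoly k (act k V s), minpoly.ne_zero hint, hspl s hs, fun v => ?_⟩
  have h := minpoly.aeval k (act k V s)
  rw [act, Polynomial.aeval_algHom_apply] at h
  exact congrArg (fun f : V →ₗ[k] V => f v) h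

/-- The same with characteristic polynomials. -/
theorem exists_characters_charpoly {V : Type*} [AddCommGroup V] [Module k V] [Module B V]
    [IsScalarTower k B V] [FiniteDimensional k V] (S : Set B) (hS : Algebra.adjoin k S = ⊤)
    (hspl : ∀ s ∈ S, (LinearMap.charpoly (Algebra.lsmul k k V s : V →ₗ[k] V)).Splits) :
    ∃ χ : Fin (finrank k V) → (B →ₐ[k] k),
      ∀ b : B, LinearMap.det (Algebra.lsmul k k V b : V →ₗ[k] V) = ∏ i, χ i b := by
  refine exists_characters S hS fun s hs => ?_
  exact (hspl s hs).of_dvd (LinearMap.charpoly_monic _).ne_zero (LinearMap.minpoly_dvd_charpoly _)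

end char

end

end Vale.Agent.P298.H25

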